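import Vale.Agent.P097.H128.NZ.TC
import Vale.Agent.P097.H202.Prim

/-! # P097 / REG-C, tools: gluing of germs along the axis, derivatives and primitives of series,
division by the second variable, local inverses -/

set_option linter.all false

open Complex Metric Filter Topology Set
open scoped ContDiff

namespace Vale.Agent.P097.H646

open Vale.Agent.P097.NZ

/-- gluing of germs along the axis -/
noncomputable def glue (f : ℂ → ℂ × ℂ → ℂ) : ℂ × ℂ → ℂ := Sm fun k z => tc (f z) k z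

theorem glue_eq {f : ℂ → ℂ × ℂ → ℂ} {x : ℂ} (hf : AnalyticAt ℂ (f x) (x, 0))
    (h : ∀ᶠ z in 𝓝 x, ∀ᶠ p in 𝓝 ((z, 0) : ℂ × ℂ), f z p = f x p) :
    ∀ᶠ p in 𝓝 ((x, 0) : ℂ × ℂ), glue f p = f x p := by
  have h1 : ∀ᶠ z in 𝓝 x, ∀ k, tc (f z) k z = tc (f x) k z := by
    filter_upwards [h] with z hz
    exact (tc_congr hz).self_of_nhds
  filter_upwards [Sm_congr (u := fun k z => tc (f z) k z) h1, Sm_tc hf] with p h2 h3
  exact h2.trans h3

/-- `P` near `(x, 0)` implies `P` near `(z, 0)` for `z` near `x` -/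
theorem eventually_axis2 {P : ℂ × ℂ → Prop} {x : ℂ} (h : ∀ᶠ p in 𝓝 ((x, 0) : ℂ × ℂ), P p) :
    ∀ᶠ z in 𝓝 x, ∀ᶠ p in 𝓝 ((z, 0) : ℂ × ℂ), P p :=
  eventually_axis h.eventually_nhds

theorem Sm_axis (u : ℕ → ℂ → ℂ) (z : ℂ) : Sm u (z, 0) = u 0 z := by
  have h : ∀ k : ℕ, k ≠ 0 → u k z * (0 : ℂ) ^ k = 0 := fun k hk => by rw [zero_pow hk, mul_zero]
  rw [Sm]
  rw [tsum_eq_single 0 h]
  simp

theorem tc_zero (f : ℂ × ℂ → ℂ) (z : ℂ) : tc f 0 z = f (z, 0) := by simp [tc]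

theorem tc_one (f : ℂ × ℂ → ℂ) (z : ℂ) : tc f 1 z = deriv (fun w => f (z, w)) 0 := by
  simp [tc, iteratedDeriv_one]

/-- division by the second variable -/
noncomputable def dv (f : ℂ × ℂ → ℂ) : ℂ × ℂ → ℂ := Sm fun k z => tc f (k + 1) z

theorem dv_an {f : ℂ × ℂ → ℂ} {x : ℂ} (hf : AnalyticAt ℂ f (x, 0)) :
    AnalyticAt ℂ (dv f) (x, 0) := by
  refine analyticAt_Sm ?_ ?_
  · filter_upwards [eventually_analyticAt_tc hf] with z hz k
    exact hz (k + 1)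
  · obtain ⟨C, B, r, hB, hr, -, h⟩ := tc_bound hf
    exact ⟨C * B, B, r, hB, hr, fun z' hz' k => ((h z' hz').1 (k + 1)).trans (le_of_eq (by ring))⟩

theorem dv_mul {f : ℂ × ℂ → ℂ} {x : ℂ} (hf : AnalyticAt ℂ f (x, 0))
    (h0 : ∀ᶠ z in 𝓝 x, f (z, 0) = 0) : ∀ᶠ p in 𝓝 ((x, 0) : ℂ × ℂ), p.2 * dv f p = f p := by
  obtain ⟨C, B, r, hB, hr, -, h⟩ := tc_bound hf
  obtain ⟨s, hs, hs'⟩ := Metric.eventually_nhds_iff_ball.1 h0
  refine eventually_of_polydisc (lt_min hr hs) hr fun z' hz' δ hδ => ?_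
  have h1 := (h z' (ball_subset_ball (min_le_left _ _) hz')).2 δ hδ
  have h2 := (hasSum_nat_add_iff (f := fun k : ℕ => tc f k z' * δ ^ k) 1).2
    (show HasSum _ (f (z', δ) + ∑ i ∈ Finset.range 1, tc f i z' * δ ^ i) by
      rw [Finset.sum_range_one, tc_zero, hs' z' (ball_subset_ball (min_le_right _ _) hz')]
      simpa using h1)
  rw [dv, Sm, ← tsum_mul_left, ← h2.tsum_eq]
  congr 1
  funext k
  ring

theorem dv_axis (f : ℂ × ℂ → ℂ) (z : ℂ) : dv f (z, 0) = deriv (fun w => f (z, w)) 0 := by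
  rw [dv, Sm_axis, zero_add, tc_one]

/-! ### derivatives -/

/-- derivative in the first variable -/
noncomputable def d1 (f : ℂ × ℂ → ℂ) (v : ℂ × ℂ) : ℂ := deriv (fun θ => f (θ, v.2)) v.1

/-- derivative in the second variable -/
noncomputable def d2 (f : ℂ × ℂ → ℂ) (v : ℂ × ℂ) : ℂ := deriv (fun w => f (v.1, w)) v.2

theorem d1_eq {g : ℂ × ℂ → ℂ} {p : ℂ × ℂ} (hg : DifferentiableAt ℂ g p) :
    d1 g p = fderiv ℂ g p (1, 0) := by
  have h1 : HasFDerivAt g (fderiv ℂ g p) (p.1, p.2) := hg.hasFDerivAt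
  have h2 : HasDerivAt (fun θ : ℂ => ((θ, p.2) : ℂ × ℂ)) (1, 0) p.1 :=
    (hasDerivAt_id p.1).prodMk (hasDerivAt_const p.1 p.2)
  exact (h1.comp_hasDerivAt p.1 h2).deriv

theorem d2_eq {g : ℂ × ℂ → ℂ} {p : ℂ × ℂ} (hg : DifferentiableAt ℂ g p) :
    d2 g p = fderiv ℂ g p (0, 1) := deriv_snd hg

theorem d1_an {f : ℂ × ℂ → ℂ} {p : ℂ × ℂ} (hf : AnalyticAt ℂ f p) : AnalyticAt ℂ (d1 f) p := by
  have h1 : ∀ᶠ q in 𝓝 p, d1 f q = fderiv ℂ f q (1, 0) := by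
    filter_upwards [hf.eventually_analyticAt] with q hq
    exact d1_eq hq.differentiableAt
  have h2 : AnalyticAt ℂ (fun q => fderiv ℂ f q (1, 0)) p :=
    ((ContinuousLinearMap.apply ℂ ℂ ((1 : ℂ), (0 : ℂ))).analyticAt _).comp hf.fderiv
  exact h2.congr (by filter_upwards [h1] with q hq; exact hq.symm)

theorem d2_an {f : ℂ × ℂ → ℂ} {p : ℂ × ℂ} (hf : AnalyticAt ℂ f p) : AnalyticAt ℂ (d2 f) p := by
  have h1 : ∀ᶠ q in 𝓝 p, d2 f q = fderiv ℂ f q (0, 1) := by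
    filter_upwards [hf.eventually_analyticAt] with q hq
    exact d2_eq hq.differentiableAt
  have h2 : AnalyticAt ℂ (fun q => fderiv ℂ f q (0, 1)) p :=
    ((ContinuousLinearMap.apply ℂ ℂ ((0 : ℂ), (1 : ℂ))).analyticAt _).comp hf.fderiv
  exact h2.congr (by filter_upwards [h1] with q hq; exact hq.symm)

theorem d1_congr {f g : ℂ × ℂ → ℂ} {p : ℂ × ℂ} (h : ∀ᶠ q in 𝓝 p, f q = g q) :
    ∀ᶠ q in 𝓝 p, d1 f q = d1 g q := by
  filter_upwards [h.eventually_nhds] with q hq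
  have hc : Tendsto (fun θ : ℂ => ((θ, q.2) : ℂ × ℂ)) (𝓝 q.1) (𝓝 q) := by
    have h1 : Continuous (fun θ : ℂ => ((θ, q.2) : ℂ × ℂ)) := by fun_prop
    exact h1.tendsto q.1
  exact Filter.EventuallyEq.deriv_eq (hc.eventually hq)

theorem d2_congr {f g : ℂ × ℂ → ℂ} {p : ℂ × ℂ} (h : ∀ᶠ q in 𝓝 p, f q = g q) :
    ∀ᶠ q in 𝓝 p, d2 f q = d2 g q := by
  filter_upwards [h.eventually_nhds] with q hq
  have hc : Tendsto (fun w : ℂ => ((q.1, w) : ℂ × ℂ)) (𝓝 q.2) (𝓝 q) := by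
    have h1 : Continuous (fun w : ℂ => ((q.1, w) : ℂ × ℂ)) := by fun_prop
    exact h1.tendsto q.2
  exact Filter.EventuallyEq.deriv_eq (hc.eventually hq)

/-- derivative of a series in the first variable -/
theorem d1_Sm {u : ℕ → ℂ → ℂ} {z : ℂ} {C B r : ℝ} (hB : 0 < B) (hr : 0 < r)
    (hu : ∀ z' ∈ ball z r, ∀ k, ‖u k z'‖ ≤ C * B ^ k)
    (hd : ∀ k, DifferentiableOn ℂ (u k) (ball z r)) :
    (∀ z' ∈ ball z (r / 2), ∀ k, ‖deriv (u k) z'‖ ≤ C / (r / 4) * B ^ k) ∧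
    ∀ z' ∈ ball z (r / 2), ∀ δ ∈ ball (0 : ℂ) (1 / (2 * B)),
      d1 (Sm u) (z', δ) = Sm (fun k => deriv (u k)) (z', δ) := by
  have hC : 0 ≤ C := by
    have := (norm_nonneg _).trans (hu z (mem_ball_self hr) 0)
    simpa using this
  have hder : ∀ z' ∈ ball z (r / 2), ∀ k, ‖deriv (u k) z'‖ ≤ C / (r / 4) * B ^ k := by
    intro z' hz' k
    have hsub : closedBall z' (r / 4) ⊆ ball z r := by
      intro w hw
      rw [mem_closedBall] at hw
      rw [mem_ball] at hz' ⊢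
      have := dist_triangle w z' z
      linarith
    have h1 := Complex.norm_deriv_le_of_forall_mem_sphere_norm_le (c := z') (R := r / 4)
      (C := C * B ^ k) (f := u k) (by positivity)
      (((hd k).mono hsub).diffContOnCl_ball le_rfl)
      (fun w hw => hu w (hsub (sphere_subset_closedBall hw)) k)
    refine h1.trans (le_of_eq ?_)
    ring
  refine ⟨hder, fun z' hz' δ hδ => ?_⟩
  have hδ' : ‖δ‖ < 1 / (2 * B) := by simpa using hδ
  have hδ2 : B * ‖δ‖ ≤ 1 / 2 := by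
    have h2 : B * ‖δ‖ < B * (1 / (2 * B)) := mul_lt_mul_of_pos_left hδ' hB
    have h3 : B * (1 / (2 * B)) = 1 / 2 := by field_simp
    linarith
  have hs : Summable (fun k : ℕ => C / (r / 4) * (1 / 2 : ℝ) ^ k) :=
    (summable_geometric_of_lt_one (by norm_num) (by norm_num)).mul_left _
  have key := hasDerivAt_tsum_of_isPreconnected (𝕜 := ℂ) (F := ℂ)
    (g := fun (k : ℕ) (θ : ℂ) => u k θ * δ ^ k) (g' := fun (k : ℕ) (θ : ℂ) => deriv (u k) θ * δ ^ k)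
    (t := ball z (r / 2)) (y₀ := z) (y := z') hs isOpen_ball (convex_ball z (r / 2)).isPreconnected
    (fun k y hy => by
      have h1 : DifferentiableAt ℂ (u k) y := (hd k).differentiableAt
        (isOpen_ball.mem_nhds (ball_subset_ball (by linarith) hy))
      exact h1.hasDerivAt.mul_const _)
    (fun k y hy => by
      rw [norm_mul, norm_pow]
      have h4 : 0 ≤ C / (r / 4) := by positivity
      calc ‖deriv (u k) y‖ * ‖δ‖ ^ k ≤ C / (r / 4) * B ^ k * ‖δ‖ ^ k := by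
            gcongr
            exact hder y hy k
        _ = C / (r / 4) * (B * ‖δ‖) ^ k := by rw [mul_pow]; ring
        _ ≤ C / (r / 4) * (1 / 2) ^ k := by gcongr)
    (mem_ball_self (by positivity))
    ((hasSum_Sm (u := fun k => u k z) hB (hu z (mem_ball_self hr)) hδ').1) hz'
  exact key.deriv

theorem tc_d1 {f : ℂ × ℂ → ℂ} {x : ℂ} (hf : AnalyticAt ℂ f (x, 0)) :
    ∀ᶠ z in 𝓝 x, ∀ k, tc (d1 f) k z = deriv (tc f k) z := by
  obtain ⟨C, B, r, hB, hr, -, h⟩ := tc_bound hf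
  obtain ⟨s, hs, hs'⟩ := Metric.eventually_nhds_iff_ball.1 (eventually_analyticAt_tc hf)
  have ht : 0 < min r s := lt_min hr hs
  have h1 := d1_Sm (u := tc f) (z := x) (r := min r s) hB ht
    (fun z' hz' => (h z' (ball_subset_ball (min_le_left _ _) hz')).1)
    (fun k z' hz' =>
      (hs' z' (ball_subset_ball (min_le_right _ _) hz') k).differentiableAt.differentiableWithinAt)
  have h2 : ∀ᶠ v in 𝓝 ((x, 0) : ℂ × ℂ), d1 f v = Sm (fun k => deriv (tc f k)) v := by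
    have h3 : ∀ᶠ v in 𝓝 ((x, 0) : ℂ × ℂ), d1 (Sm (tc f)) v = Sm (fun k => deriv (tc f k)) v :=
      eventually_of_polydisc (half_pos ht) (by positivity : (0 : ℝ) < 1 / (2 * B)) h1.2
    filter_upwards [h3, d1_congr (Sm_tc hf)] with v h4 h5
    rw [← h5, h4]
  have h3 : GeoBd (fun k => deriv (tc f k)) x :=
    ⟨C / (min r s / 4), B, min r s / 2, hB, half_pos ht, h1.1⟩
  filter_upwards [tc_congr h2, tc_Sm_of_geoBd h3] with z h4 h5 k
  rw [h4 k, h5 k]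

theorem d1_Sm_of {u : ℕ → ℂ → ℂ} {x : ℂ} (hh : ∀ᶠ z' in 𝓝 x, ∀ k : ℕ, AnalyticAt ℂ (u k) z')
    (hb : GeoBd u x) : ∀ᶠ v in 𝓝 ((x, 0) : ℂ × ℂ), d1 (Sm u) v = Sm (fun k => deriv (u k)) v := by
  obtain ⟨C, B, r, hB, hr, hu⟩ := hb
  obtain ⟨s, hs, hs'⟩ := Metric.eventually_nhds_iff_ball.1 hh
  have ht : 0 < min r s := lt_min hr hs
  have h1 := d1_Sm (u := u) (z := x) (r := min r s) hB ht
    (fun z' hz' => hu z' (ball_subset_ball (min_le_left _ _) hz'))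
    (fun k z' hz' =>
      (hs' z' (ball_subset_ball (min_le_right _ _) hz') k).differentiableAt.differentiableWithinAt)
  exact eventually_of_polydisc (half_pos ht) (by positivity : (0 : ℝ) < 1 / (2 * B)) h1.2

/-! ### primitives -/

theorem geoBd_prim {u U : ℕ → ℂ → ℂ} {V : Set ℂ} (hV : IsOpen V) (hc : IsPreconnected V)
    (hU : ∀ k, ∀ z ∈ V, HasDerivAt (U k) (u k z) z) (hu : ∀ x ∈ V, GeoBd u x) {x₁ : ℂ}
    (h1 : x₁ ∈ V) (hb : ∃ C B : ℝ, 0 < B ∧ ∀ k, ‖U k x₁‖ ≤ C * B ^ k) : ∀ x ∈ V, GeoBd U x := by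
  -- propagation inside a ball
  have key : ∀ x ∈ V, ∃ r > 0, ball x r ⊆ V ∧ ∀ y ∈ ball x r,
      (∃ C B : ℝ, 0 < B ∧ ∀ k, ‖U k y‖ ≤ C * B ^ k) →
      ∃ C B : ℝ, 0 < B ∧ ∀ z ∈ ball x r, ∀ k, ‖U k z‖ ≤ C * B ^ k := by
    intro x hx
    obtain ⟨C, B, r, hB, hr, hu'⟩ := hu x hx
    obtain ⟨s, hs, hs'⟩ := Metric.isOpen_iff.1 hV x hx
    have hC : 0 ≤ C := by
      have := (norm_nonneg _).trans (hu' x (mem_ball_self hr) 0)
      simpa using this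
    refine ⟨min r s, lt_min hr hs, fun z hz => hs' (ball_subset_ball (min_le_right _ _) hz), ?_⟩
    rintro y hy ⟨C', B', hB', h'⟩
    have hC' : 0 ≤ C' := by
      have := (norm_nonneg _).trans (h' 0)
      simpa using this
    refine ⟨C' + C * (2 * min r s), max B B', lt_max_of_lt_left hB, fun z hz k => ?_⟩
    have h2 : ‖U k z - U k y‖ ≤ C * B ^ k * ‖z - y‖ :=
      (convex_ball x (min r s)).norm_image_sub_le_of_norm_hasDerivWithin_le
        (f := U k) (f' := u k)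
        (fun w hw => (hU k w (hs' (ball_subset_ball (min_le_right _ _) hw))).hasDerivWithinAt)
        (fun w hw => hu' w (ball_subset_ball (min_le_left _ _) hw) k) hy hz
    have h3 : ‖z - y‖ ≤ 2 * min r s := by
      rw [mem_ball] at hy hz
      rw [← dist_eq_norm]
      have := dist_triangle_right z y x
      linarith
    have h4 : B ^ k ≤ max B B' ^ k := pow_le_pow_left₀ hB.le (le_max_left _ _) k
    have h5 : B' ^ k ≤ max B B' ^ k := pow_le_pow_left₀ hB'.le (le_max_right _ _) k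
    have hm : 0 < min r s := lt_min hr hs
    calc ‖U k z‖ = ‖U k y + (U k z - U k y)‖ := by rw [add_sub_cancel]
      _ ≤ ‖U k y‖ + ‖U k z - U k y‖ := norm_add_le _ _
      _ ≤ C' * B' ^ k + C * B ^ k * (2 * min r s) := by
          refine add_le_add (h' k) (h2.trans ?_)
          gcongr
      _ ≤ C' * max B B' ^ k + C * max B B' ^ k * (2 * min r s) := by gcongr
      _ = (C' + C * (2 * min r s)) * max B B' ^ k := by ring
  set W : Set ℂ := {x | x ∈ V ∧ ∃ C B : ℝ, 0 < B ∧ ∀ k, ‖U k x‖ ≤ C * B ^ k} with hW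
  have hWo : IsOpen W := by
    rw [Metric.isOpen_iff]
    rintro x ⟨hx, hx'⟩
    obtain ⟨r, hr, hrV, h⟩ := key x hx
    obtain ⟨C, B, hB, h2⟩ := h x (mem_ball_self hr) hx'
    exact ⟨r, hr, fun z hz => ⟨hrV hz, C, B, hB, h2 z hz⟩⟩
  have hsub : V ⊆ W := by
    refine hc.subset_of_closure_inter_subset hWo ⟨x₁, h1, h1, hb⟩ ?_
    rintro x ⟨hxc, hxV⟩
    obtain ⟨r, hr, hrV, h⟩ := key x hxV
    obtain ⟨y, hyW, hy⟩ := Metric.mem_closure_iff.1 hxc r hr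
    rw [dist_comm] at hy
    obtain ⟨C, B, hB, h2⟩ := h y hy hyW.2
    exact ⟨hxV, C, B, hB, h2 x (mem_ball_self hr)⟩
  intro x hx
  obtain ⟨r, hr, hrV, h⟩ := key x hx
  obtain ⟨C, B, hB, h2⟩ := h x (mem_ball_self hr) (hsub hx).2
  exact ⟨C, B, r, hB, hr, h2⟩

/-! ### local inverses -/

theorem inv_local {G : ℂ × ℂ → ℂ × ℂ} {p : ℂ × ℂ} (hG : AnalyticAt ℂ G p)
    (hi : ∀ v, fderiv ℂ G p v = 0 → v = 0) :
    ∃ K : ℂ × ℂ → ℂ × ℂ, AnalyticAt ℂ K (G p) ∧ K (G p) = p ∧ (∀ᶠ u in 𝓝 (G p), G (K u) = u) ∧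
      ∀ᶠ v in 𝓝 p, K (G v) = v := by
  have hinj : Function.Injective (fderiv ℂ G p : (ℂ × ℂ) →ₗ[ℂ] (ℂ × ℂ)) :=
    (injective_iff_map_eq_zero _).2 hi
  set A : (ℂ × ℂ) ≃L[ℂ] (ℂ × ℂ) :=
    (LinearEquiv.ofInjectiveEndo (fderiv ℂ G p : (ℂ × ℂ) →ₗ[ℂ] (ℂ × ℂ)) hinj).toContinuousLinearEquiv
  have hA : (A : (ℂ × ℂ) →L[ℂ] (ℂ × ℂ)) = fderiv ℂ G p := by
    ext <;> rfl
  have hc : ContDiffAt ℂ ω G p := hG.contDiffAt
  have hd : HasFDerivAt G (A : (ℂ × ℂ) →L[ℂ] (ℂ × ℂ)) p := by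
    rw [hA]
    exact hG.differentiableAt.hasFDerivAt
  have hn : (ω : WithTop ℕ∞) ≠ 0 := by decide
  refine ⟨hc.localInverse hd hn, ?_, hc.localInverse_apply_image hd hn, ?_, ?_⟩
  · exact (hc.to_localInverse hd hn).analyticAt
  · exact (hc.hasStrictFDerivAt' hd hn).eventually_right_inverse
  · exact (hc.hasStrictFDerivAt' hd hn).eventually_left_inverse

/-- local inverses at nearby points have the same germs -/
theorem inv_germ {G : ℂ × ℂ → ℂ × ℂ} {Kx Kz : ℂ × ℂ → ℂ × ℂ} {z : ℂ}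
    (h1 : ∀ᶠ v in 𝓝 ((z, 0) : ℂ × ℂ), Kx (G v) = v) (h2 : ContinuousAt Kz (z, 0))
    (h3 : Kz (z, 0) = (z, 0)) (h4 : ∀ᶠ u in 𝓝 ((z, 0) : ℂ × ℂ), G (Kz u) = u) :
    ∀ᶠ u in 𝓝 ((z, 0) : ℂ × ℂ), Kz u = Kx u := by
  have h5 : Tendsto Kz (𝓝 (z, 0)) (𝓝 (z, 0)) := by
    have := h2.tendsto
    rwa [h3] at this
  filter_upwards [h5.eventually h1, h4] with u h6 h7
  rw [h7] at h6
  exact h6.symm

end Vale.Agent.P097.H646
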